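import Vale.Agent.H16.Reg

/-!
# A stable tempered radial pair potential on `ℝ³` with a phase transition

Particles in `ℝ³` interact through a radial pair potential `φ : (0,∞) → ℝ` (below a function on `ℝ`
of which only the values on `(0,∞)` enter the energies of configurations of distinct points).
-/

namespace Vale.Agent.Results.P171.RadialTransition

open MeasureTheory Filter Topology

/-- Euclidean three-space, with the Euclidean norm and distance. -/
abbrev R3 := EuclideanSpace ℝ (Fin 3)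

/-- The energy `U_N(x_1,…,x_N) = Σ_{i<j} φ(|x_i - x_j|)`. -/
noncomputable def energy (φ : ℝ → ℝ) {N : ℕ} (x : Fin N → R3) : ℝ :=
  ∑ i : Fin N, ∑ j : Fin N, if i < j then φ (dist (x i) (x j)) else 0

/-- `φ` is locally bounded on `(0,∞)`. -/
def LocallyBounded (φ : ℝ → ℝ) : Prop :=
  ∀ r : ℝ, 0 < r → ∃ C δ : ℝ, 0 < δ ∧ ∀ s : ℝ, 0 < s → |s - r| < δ → |φ s| ≤ C

/-- Stability: `U_N ≥ -B N` for all `N` and all configurations of distinct points. -/
def Stable (φ : ℝ → ℝ) : Prop :=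
  ∃ B : ℝ, ∀ (N : ℕ) (x : Fin N → R3), Function.Injective x → -(B * N) ≤ energy φ x

/-- Temperedness: `φ(r) ≤ C r^{-3-ε}` for all `r ≥ R₀`. -/
def Tempered (φ : ℝ → ℝ) : Prop :=
  ∃ C ε R₀ : ℝ, 0 < C ∧ 0 < ε ∧ 0 < R₀ ∧ ∀ r : ℝ, R₀ ≤ r → φ r ≤ C * r ^ (-(3 + ε))

/-- The cube `Λ_L = [0,L]³`. -/
def box (L : ℝ) : Set R3 := {y | ∀ m : Fin 3, 0 ≤ y m ∧ y m ≤ L}

/-- `Z_{L,N}(β) = (1/N!) ∫_{Λ_L^N} exp(-β U_N(x_1,…,x_N)) dx_1 ⋯ dx_N` (equal to `1` for `N = 0`). -/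
noncomputable def Z (φ : ℝ → ℝ) (β L : ℝ) (N : ℕ) : ℝ :=
  (1 / (N.factorial : ℝ)) *
    ∫ x in {x : Fin N → R3 | ∀ i, x i ∈ box L}, Real.exp (-(β * energy φ x))

/-- `p` is the value at `(β, z)` of `Π(β,z) = lim_{L→∞} L^{-3} log Σ_{N≥0} z^N Z_{L,N}(β)`,
the series being convergent for every `L > 0`. -/
def IsPressure (φ : ℝ → ℝ) (β z p : ℝ) : Prop :=
  (∀ L : ℝ, 0 < L → Summable fun N : ℕ => z ^ N * Z φ β L N) ∧
    Tendsto (fun L : ℝ => (L ^ 3)⁻¹ * Real.log (∑' N : ℕ, z ^ N * Z φ β L N)) atTop (𝓝 p)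

/-- Phase transition in the sense (a): the limit `Π(β,z)` exists for all `β, z > 0` and for some
`β > 0` the function `z ↦ Π(β,z)` is not differentiable at some point of `(0,∞)`. -/
def HasPhaseTransitionA (φ : ℝ → ℝ) : Prop :=
  ∃ Pr : ℝ → ℝ → ℝ, (∀ β z : ℝ, 0 < β → 0 < z → IsPressure φ β z (Pr β z)) ∧
    ∃ β z : ℝ, 0 < β ∧ 0 < z ∧ ¬ DifferentiableAt ℝ (fun y => Pr β y) z

/-- There is a stable, tempered, Borel and locally bounded (indeed bounded, eventually nonpositive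
and integrable over `ℝ³`) radial pair potential on `ℝ³` which has a phase transition. -/
theorem result : ∃ φ : ℝ → ℝ, Measurable φ ∧ LocallyBounded φ ∧ Stable φ ∧ Tempered φ ∧
    HasPhaseTransitionA φ ∧
    (∃ C : ℝ, ∀ r : ℝ, |φ r| ≤ C) ∧ (∀ r : ℝ, 2 ≤ r → φ r ≤ 0) ∧
    Integrable (fun x : R3 => φ ‖x‖) := by
  obtain ⟨A, t, μ, hA, g, -, hnd⟩ := H16.exists_kink
  refine ⟨H16.phi A t, H16.phi_measurable A g.t0 g.ts, ?_, ?_, ?_, ?_,
    ⟨A, H16.phi_bounded g⟩, fun r hr => H16.phi_nonpos_of_ge g.t0 hr,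
    H16.phi_integrable A g.t0 g.ts⟩
  · exact fun r _ => ⟨A, 1, one_pos, fun s _ _ => H16.phi_bounded g s⟩
  · refine ⟨A / 2, fun N x _ => ?_⟩
    have h1 : energy (H16.phi A t) x = (H16.W (H16.phi A t) (List.ofFn x) - N * H16.phi A t 0) / 2 :=
      H16.en_eq (H16.phi A t) x
    rw [h1, H16.W_ofFn]
    have h2 := H16.W_phi_ge g.A0 g.t0 g.ts x
    have h3 : 0 ≤ (A - 27 * ∑' k, t k) * H16.S2 x :=
      mul_nonneg (by linarith [g.At]) (H16.SB_nonneg _ _ _)
    have h4 : (N : ℝ) * H16.phi A t 0 ≤ N * A :=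
      mul_le_mul_of_nonneg_left ((le_abs_self _).trans (H16.phi_bounded g 0)) (by positivity)
    linarith
  · refine ⟨1, 1, 2, one_pos, one_pos, two_pos, fun r hr => ?_⟩
    refine (H16.phi_nonpos_of_ge g.t0 hr).trans ?_
    have : 0 ≤ r := by linarith
    positivity
  · refine ⟨fun β z => H16.P (β * A) (fun k => β * t k) (Real.log z), ?_, 1, Real.exp μ, one_pos,
      Real.exp_pos μ, ?_⟩
    · intro β z hβ hz
      exact ⟨fun L hL => (H16.grand_eq g hβ hL.le hz).1, H16.pressure_exists g hβ hz⟩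
    · intro hdiff
      apply hnd
      have h1 : DifferentiableAt ℝ ((fun y => H16.P (1 * A) (fun k => 1 * t k) (Real.log y)) ∘ Real.exp) μ :=
        DifferentiableAt.comp μ hdiff Real.differentiableAt_exp
      have h2 : ((fun y => H16.P (1 * A) (fun k => 1 * t k) (Real.log y)) ∘ Real.exp) = H16.P A t := by
        funext ν
        simp
      rw [h2] at h1
      exact h1

end Vale.Agent.Results.P171.RadialTransition
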